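import Vale.Agent.P065.UB.Defs

/-!
# P065: few points lie both on a line with few points below and on one with few points above
(row B of helper841's limit, helper888)
-/

set_option autoImplicit false

namespace Vale.Agent.P065.R2.H841.H888

open Finset Vale.Agent.P065.UB

open Classical in
/-- at most `N + 1` points have rank at most `N` -/
theorem card_rank_le {P : Finset Pt} {f : Pt → ℝ} (hf : ∀ p ∈ P, ∀ q ∈ P, f p = f q → p = q)
    (N : ℕ) : #{p ∈ P | #{u ∈ P | f u < f p} ≤ N} ≤ N + 1 := by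
  have key : ∀ p ∈ P, ∀ q ∈ P, f p < f q → #{u ∈ P | f u < f p} < #{u ∈ P | f u < f q} := by
    intro p hp q hq h
    apply Finset.card_lt_card
    rw [Finset.ssubset_iff_of_subset]
    · exact ⟨p, by simp [hp, h], by simp⟩
    · intro u hu
      simp only [Finset.mem_filter] at hu ⊢
      exact ⟨hu.1, hu.2.trans h⟩
  have h1 : #{p ∈ P | #{u ∈ P | f u < f p} ≤ N} ≤ #(Finset.range (N + 1)) := by
    apply Finset.card_le_card_of_injOn (fun p => #{u ∈ P | f u < f p})
    · intro p hp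
      simp only [Finset.coe_filter, Set.mem_setOf_eq] at hp
      simp only [Finset.coe_range, Set.mem_Iio]
      exact Nat.lt_succ_of_le hp.2
    · intro p hp q hq h
      simp only [Finset.coe_filter, Set.mem_setOf_eq] at hp hq
      have h' : #{u ∈ P | f u < f p} = #{u ∈ P | f u < f q} := h
      rcases lt_trichotomy (f p) (f q) with h2 | h2 | h2
      · exact absurd h' (key p hp.1 q hq.1 h2).ne
      · exact hf p hp.1 q hq.1 h2
      · exact absurd h' (key q hq.1 p hp.1 h2).ne'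
  simpa using h1

open Classical in
/-- ROW B -/
theorem specB {P : Finset Pt} (hP : Good P) (k : ℕ) :
    #{p ∈ P | (∃ m, #{u ∈ P | ht m u < ht m p} ≤ k) ∧
      ∃ m, #{u ∈ P | ht m p < ht m u} ≤ k} ≤ 4 * k + 3 := by
  have hA := card_rank_le (P := P) (f := fun p => p.1) (fun p hp q hq h => hP.xinj p hp q hq h)
    (2 * k + 1)
  have hB := card_rank_le (P := P) (f := fun p => -p.1)
    (fun p hp q hq h => hP.xinj p hp q hq (neg_injective h)) (2 * k)
  have hsub : ({p ∈ P | (∃ m, #{u ∈ P | ht m u < ht m p} ≤ k) ∧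
      ∃ m, #{u ∈ P | ht m p < ht m u} ≤ k} : Finset Pt) ⊆
      {p ∈ P | #{u ∈ P | u.1 < p.1} ≤ 2 * k + 1} ∪ {p ∈ P | #{u ∈ P | -u.1 < -p.1} ≤ 2 * k} := by
    intro p hp
    simp only [Finset.mem_filter, Finset.mem_union] at hp ⊢
    obtain ⟨hpP, ⟨m₁, h1⟩, ⟨m₂, h2⟩⟩ := hp
    rcases le_or_gt m₁ m₂ with hm | hm
    · left
      refine ⟨hpP, ?_⟩
      have hE : #{u ∈ P | u ≠ p ∧ ht m₁ p = ht m₁ u} ≤ 1 := by
        rw [Finset.card_le_one]
        intro a ha b hb
        simp only [Finset.mem_filter] at ha hb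
        by_contra hab
        exact hP.gen m₁ p hpP a ha.1 b hb.1 (Ne.symm ha.2.1) (Ne.symm hb.2.1) hab ha.2.2 hb.2.2
      have hs : ({u ∈ P | u.1 < p.1} : Finset Pt) ⊆
          ({u ∈ P | ht m₁ u < ht m₁ p} ∪ {u ∈ P | ht m₂ p < ht m₂ u}) ∪
            {u ∈ P | u ≠ p ∧ ht m₁ p = ht m₁ u} := by
        intro u hu
        simp only [Finset.mem_filter, Finset.mem_union] at hu ⊢
        obtain ⟨huP, hlt⟩ := hu
        rcases lt_trichotomy (ht m₁ u) (ht m₁ p) with h | h | h
        · exact Or.inl (Or.inl ⟨huP, h⟩)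
        · exact Or.inr ⟨huP, fun e => by rw [e] at hlt; exact lt_irrefl _ hlt, h.symm⟩
        · refine Or.inl (Or.inr ⟨huP, ?_⟩)
          unfold ht at h ⊢
          nlinarith [mul_nonneg (sub_nonneg.2 hm) (sub_nonneg.2 hlt.le)]
      calc #{u ∈ P | u.1 < p.1} ≤ _ := Finset.card_le_card hs
        _ ≤ _ := Finset.card_union_le _ _
        _ ≤ (#{u ∈ P | ht m₁ u < ht m₁ p} + #{u ∈ P | ht m₂ p < ht m₂ u}) + 1 :=
            Nat.add_le_add (Finset.card_union_le _ _) hE
        _ ≤ 2 * k + 1 := by omega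
    · right
      refine ⟨hpP, ?_⟩
      have hs : ({u ∈ P | -u.1 < -p.1} : Finset Pt) ⊆
          ({u ∈ P | ht m₁ u < ht m₁ p} ∪ {u ∈ P | ht m₂ p < ht m₂ u}) := by
        intro u hu
        simp only [Finset.mem_filter, Finset.mem_union] at hu ⊢
        obtain ⟨huP, hlt⟩ := hu
        have hlt' : p.1 < u.1 := neg_lt_neg_iff.1 hlt
        rcases lt_or_ge (ht m₁ u) (ht m₁ p) with h | h
        · exact Or.inl ⟨huP, h⟩
        · refine Or.inr ⟨huP, ?_⟩
          unfold ht at h ⊢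
          nlinarith [mul_pos (sub_pos.2 hm) (sub_pos.2 hlt')]
      calc #{u ∈ P | -u.1 < -p.1} ≤ _ := Finset.card_le_card hs
        _ ≤ #{u ∈ P | ht m₁ u < ht m₁ p} + #{u ∈ P | ht m₂ p < ht m₂ u} :=
            Finset.card_union_le _ _
        _ ≤ 2 * k := by omega
  calc _ ≤ _ := Finset.card_le_card hsub
    _ ≤ _ := Finset.card_union_le _ _
    _ ≤ (2 * k + 1 + 1) + (2 * k + 1) := Nat.add_le_add hA hB
    _ = 4 * k + 3 := by ring

end Vale.Agent.P065.R2.H841.H888
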